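import Vale.Agent.Lib.P068.FourPart

namespace Vale.Agent.Results.P068.B_FourPart

open Set Matroid

theorem result {α : Type*} (M N : Matroid α) (hE : M.E = N.E) (E₁ E₂ E₃ E₄ : Set α)
    (hcov : M.E ⊆ E₁ ∪ E₂ ∪ E₃ ∪ E₄)
    (h₁ : N.eRk E₁ < ⊤) (h₂ : N✶.eRk E₂ < ⊤) (h₃ : M.eRk E₃ < ⊤) (h₄ : M✶.eRk E₄ < ⊤) :
    ∃ JM JN : Set α, Disjoint JM JN ∧ M.Indep (JM ∪ JN) ∧ N.Indep (JM ∪ JN) ∧
      M.closure JM ∪ N.closure JN = M.E :=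
  Lib.P068.four_part hE hcov h₁ h₂ h₃ h₄

end Vale.Agent.Results.P068.B_FourPart
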