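import Vale.Agent.Lib.P068.PackCover

namespace Vale.Agent.Results.P068.C_PackCoverUniform

open Set Matroid

/-- A matroid is uniform if every subset of its ground set is independent or spanning. -/
def IsUniform {α : Type*} (M : Matroid α) : Prop := ∀ X ⊆ M.E, M.Indep X ∨ M.Spanning X

/-- A packing/covering partition `E = P ∪ C` for the family `M` of matroids on `E`;
`M i ↾ P` is the restriction and `((M i)✶ ↾ C)✶` is the contraction of `M i` onto `C`. -/
def HasPackingCovering {ι α : Type*} (M : ι → Matroid α) (E : Set α) : Prop :=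
  ∃ P C : Set α, P ∪ C = E ∧ Disjoint P C ∧ ∃ S I : ι → Set α,
    (∀ i, S i ⊆ P) ∧ (∀ i, I i ⊆ C) ∧ Pairwise (fun i j => Disjoint (S i) (S j)) ∧
    (∀ i, ((M i) ↾ P).closure (S i) = P) ∧ (∀ i, (((M i)✶ ↾ C)✶).Indep (I i)) ∧
    (⋃ i, I i) = C

theorem result {ι α : Type*} (M : ι → Matroid α) (E : Set α) (hE : ∀ i, (M i).E = E)
    (hU : ∀ i j, i ≠ j → IsUniform (M i) ∨ IsUniform (M j)) : HasPackingCovering M E := by
  classical
  have hres : ∀ i, (M i) ↾ E = M i := fun i => by
    rw [← hE i]; exact restrict_ground_eq_self _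
  have hresd : ∀ i, (M i)✶ ↾ E = (M i)✶ := fun i => by
    have : (M i)✶.E = E := by rw [dual_ground, hE i]
    rw [← this]; exact restrict_ground_eq_self _
  by_cases hι : IsEmpty ι
  · refine ⟨E, ∅, union_empty E, disjoint_empty E, fun _ => ∅, fun _ => ∅, ?_, ?_, ?_, ?_, ?_, ?_⟩
    · exact fun i => (hι.false i).elim
    · exact fun i => (hι.false i).elim
    · exact fun i => (hι.false i).elim
    · exact fun i => (hι.false i).elim
    · exact fun i => (hι.false i).elim
    · simp
  rw [not_isEmpty_iff] at hι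
  obtain ⟨i₀, hi₀⟩ : ∃ i₀ : ι, ∀ i, i ≠ i₀ → IsUniform (M i) := by
    by_cases hex : ∃ i, ¬ IsUniform (M i)
    · obtain ⟨i₀, h0⟩ := hex
      exact ⟨i₀, fun i hi => (hU i i₀ hi).resolve_right h0⟩
    · push Not at hex
      exact ⟨hι.some, fun i _ => hex i⟩
  rcases Lib.P068.pack_or_cover M E hE i₀ hi₀ with ⟨S, hSd, hSb⟩ | ⟨I, hI, hIE⟩
  · refine ⟨E, ∅, union_empty E, disjoint_empty E, S, fun _ => ∅, ?_, ?_, hSd, ?_, ?_, ?_⟩
    · exact fun i => (hE i) ▸ (hSb i).subset_ground
    · exact fun i => Subset.rfl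
    · intro i
      rw [hres i, (hSb i).closure_eq, hE i]
    · exact fun i => empty_indep _
    · simp
  · refine ⟨∅, E, empty_union E, empty_disjoint E, fun _ => ∅, I, ?_, ?_, ?_, ?_, ?_, hIE⟩
    · exact fun i => Subset.rfl
    · exact fun i => (hE i) ▸ (hI i).subset_ground
    · exact fun i j _ => disjoint_empty _
    · intro i
      exact subset_empty_iff.1 (((M i) ↾ ∅).closure_subset_ground ∅)
    · intro i
      rw [hresd i, dual_dual]
      exact hI i

end Vale.Agent.Results.P068.C_PackCoverUniform
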