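import Vale.Agent.Lib.P068.Defect

namespace Vale.Agent.Results.P068.D_FiniteDefect

open Set Matroid

theorem result {α : Type*} (M N : Matroid α) (hE : M.E = N.E) (JM JN F : Set α) (hF : F.Finite)
    (hdisj : Disjoint JM JN) (hM : M.Indep (JM ∪ JN)) (hN : N.Indep (JM ∪ JN))
    (hcov : M.closure (JM ∪ F) ∪ N.closure (JN ∪ F) = M.E) :
    ∃ JM' JN' : Set α, Disjoint JM' JN' ∧ M.Indep (JM' ∪ JN') ∧ N.Indep (JM' ∪ JN') ∧
      M.closure JM' ∪ N.closure JN' = M.E :=
  Lib.P068.finite_defect hE hF hdisj hM hN hcov.symm.subset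

end Vale.Agent.Results.P068.D_FiniteDefect
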