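import Vale.Agent.Results.P068.A_Perturbation
import Vale.Agent.Results.P068.B_FourPart
import Vale.Agent.Results.P068.C_PackCoverUniform
import Vale.Agent.Results.P068.D_FiniteDefect

namespace Vale.Agent.Results.P068.A_Combined

open Set Matroid

/-- Conjunction of our four results on the infinite matroid intersection and packing/covering
conjectures: invariance of intersection under finite perturbations, the four part case, repair of a
finite defect, and packing/covering for families with at most one non-uniform member. -/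
theorem result {ι α : Type*} :
    (∀ (M M' N N' : Matroid α), M.E = N.E →
      A_Perturbation.FinitelyClose M M' → A_Perturbation.FinitelyClose N N' →
      (A_Perturbation.SatisfiesIntersection M N ↔ A_Perturbation.SatisfiesIntersection M' N')) ∧
    (∀ (M N : Matroid α), M.E = N.E → ∀ (E₁ E₂ E₃ E₄ : Set α),
      M.E ⊆ E₁ ∪ E₂ ∪ E₃ ∪ E₄ →
      N.eRk E₁ < ⊤ → N✶.eRk E₂ < ⊤ → M.eRk E₃ < ⊤ → M✶.eRk E₄ < ⊤ →
      ∃ JM JN : Set α, Disjoint JM JN ∧ M.Indep (JM ∪ JN) ∧ N.Indep (JM ∪ JN) ∧
        M.closure JM ∪ N.closure JN = M.E) ∧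
    (∀ (M N : Matroid α), M.E = N.E → ∀ (JM JN F : Set α), F.Finite →
      Disjoint JM JN → M.Indep (JM ∪ JN) → N.Indep (JM ∪ JN) →
      M.closure (JM ∪ F) ∪ N.closure (JN ∪ F) = M.E →
      ∃ JM' JN' : Set α, Disjoint JM' JN' ∧ M.Indep (JM' ∪ JN') ∧ N.Indep (JM' ∪ JN') ∧
        M.closure JM' ∪ N.closure JN' = M.E) ∧
    (∀ (M : ι → Matroid α) (E : Set α), (∀ i, (M i).E = E) →
      (∀ i j, i ≠ j → C_PackCoverUniform.IsUniform (M i) ∨ C_PackCoverUniform.IsUniform (M j)) →
      C_PackCoverUniform.HasPackingCovering M E) :=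
  ⟨fun M M' N N' hE hM hN => A_Perturbation.result M M' N N' hE hM hN,
   fun M N hE E₁ E₂ E₃ E₄ hcov h₁ h₂ h₃ h₄ => B_FourPart.result M N hE E₁ E₂ E₃ E₄ hcov h₁ h₂ h₃ h₄,
   fun M N hE JM JN F hF hd hM hN hcov => D_FiniteDefect.result M N hE JM JN F hF hd hM hN hcov,
   fun M E hE hU => C_PackCoverUniform.result M E hE hU⟩

end Vale.Agent.Results.P068.A_Combined
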