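import Vale.Agent.Lib.P068.FourPart

namespace Vale.Agent.Results.P068.A_Perturbation

open Set Matroid

/-- The pair `(M, N)` satisfies intersection: some common independent set `JM ∪ JN`
(disjoint union) has `cl_M JM ∪ cl_N JN = E`. -/
def SatisfiesIntersection {α : Type*} (M N : Matroid α) : Prop :=
  ∃ JM JN : Set α, Disjoint JM JN ∧ M.Indep (JM ∪ JN) ∧ N.Indep (JM ∪ JN) ∧
    M.closure JM ∪ N.closure JN = M.E

/-- Two matroids on the same ground set are finitely close if every independent set of either
one becomes independent in the other one after deleting finitely many of its elements. -/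
def FinitelyClose {α : Type*} (N N' : Matroid α) : Prop :=
  N.E = N'.E ∧ (∀ I, N.Indep I → ∃ I' ⊆ I, N'.Indep I' ∧ (I \ I').Finite) ∧
    (∀ I, N'.Indep I → ∃ I' ⊆ I, N.Indep I' ∧ (I \ I').Finite)

theorem result {α : Type*} (M M' N N' : Matroid α) (hE : M.E = N.E)
    (hM : FinitelyClose M M') (hN : FinitelyClose N N') :
    SatisfiesIntersection M N ↔ SatisfiesIntersection M' N' := by
  obtain ⟨hME, hM1, hM2⟩ := hM
  obtain ⟨hNE, hN1, hN2⟩ := hN
  constructor
  · intro h
    have h1 : Lib.P068.Inter M N' := Lib.P068.perturb hE hNE hN1 hN2 h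
    have h2 : Lib.P068.Inter N' M := Lib.P068.Inter.symm (hE.trans hNE) h1
    have h3 : Lib.P068.Inter N' M' := Lib.P068.perturb (hE.trans hNE).symm hME hM1 hM2 h2
    exact Lib.P068.Inter.symm ((hE.trans hNE).symm.trans hME) h3
  · intro h
    have hE' : M'.E = N'.E := hME.symm.trans (hE.trans hNE)
    have h1 : Lib.P068.Inter M' N := Lib.P068.perturb hE' hNE.symm hN2 hN1 h
    have h2 : Lib.P068.Inter N M' := Lib.P068.Inter.symm (hE'.trans hNE.symm) h1
    have h3 : Lib.P068.Inter N M := Lib.P068.perturb (hE'.trans hNE.symm).symm hME.symm hM2 hM1 h2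
    exact Lib.P068.Inter.symm hE.symm h3

end Vale.Agent.Results.P068.A_Perturbation
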